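import Vale.Agent.P358.Main

namespace Vale.Agent.Results.P358.Additivity

open Vale.Agent.P358

theorem result (γ ν : ℝ) (hγ : γ ∈ Set.Icc (0 : ℝ) 1) (hν : ν ∈ Set.Icc (0 : ℝ) 1) :
    (∀ n : ℕ, 1 ≤ n → holevo (tensorPow (gad γ ν) n) = n * holevo (gad γ ν)) ∧
    capacity (gad γ ν) = holevo (gad γ ν) ∧
    IsGreatest (gadValue γ ν '' Set.Icc 0 1) (capacity (gad γ ν)) ∧
    IsGreatest (holevoValues (gad γ ν)) (holevo (gad γ ν)) ∧
    (∀ n : ℕ, 1 ≤ n →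
      IsGreatest (holevoValues (tensorPow (gad γ ν) n)) (holevo (tensorPow (gad γ ν) n))) ∧
    IsGreatest (blockRates (gad γ ν)) (capacity (gad γ ν)) := by
  obtain ⟨M, h1, h2, h3⟩ := main hγ hν
  have e1 : holevo (gad γ ν) = M := h2.csSup_eq
  have e2 : ∀ n : ℕ, holevo (tensorPow (gad γ ν) n) = n * M := fun n => (h3 n).csSup_eq
  have h4 : IsGreatest (blockRates (gad γ ν)) M := by
    refine ⟨⟨1, le_rfl, by simp [e2]⟩, ?_⟩
    rintro _ ⟨n, hn, rfl⟩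
    have : (n : ℝ) ≠ 0 := by positivity
    rw [e2, mul_div_cancel_left₀ _ this]
  have e3 : capacity (gad γ ν) = M := h4.csSup_eq
  rw [e1, e3]
  exact ⟨fun n _ => e2 n, rfl, h1, h2, fun n _ => e2 n ▸ h3 n, h4⟩

end Vale.Agent.Results.P358.Additivity
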